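import Vale.Agent.P002.R2.H238.BGe

/-!
# Potential density of integral points for groups with a boundedly generated normal subgroup
-/

namespace Vale.Agent.Results.P002.BoundedGeneration

open Matrix NumberField Vale.Agent.P002R.Orb Vale.Agent.P002.H326J Vale.Agent.P002.H2
  Vale.Agent.P002.H252 Vale.Agent.P002.R2.H238.BG

/-- (1) INTEGRALITY. `N` is a subgroup of a group `G` contained in a product of finitely many cyclic
groups generated by elements `g i`. If the eigenvalues of all `f (g i)` are algebraic integers,
`f : G → SL_r(ℂ)` a representation, so are all eigenvalues and traces of all `f x`, `x` in `N`.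

(2) TAME ELEMENTS (`IsTame`, a purely group theoretic condition) have only roots of unity as
eigenvalues in all representations for which the given elements `w j` have this property.

(3) DENSITY. `Γ = ⟨ι | R⟩` any finitely generated group, any rank `r`, any elements `w j`, any
quasi-unipotent classes `C j` (or none: `s = 0`), `Y = YW`. Let `N` be a normal subgroup of `Γ`,
contained in a product of finitely many cyclic groups generated by elements `g i` which are tame, or
whose eigenvalues are algebraic integers at all points of `Y`. Suppose that `Γ` is virtually solvable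
modulo `N`; or only that `N` lies in the common kernel `K` of a finite `Γ`-equivariant family `O` of
maps of subgroups of finite index to orbifold groups of curves, for which the `w j` are peripheral,
and `K` is virtually solvable modulo `N`. Then some number field `L` makes the `𝓞 L`-integral
points, and the representations into `SL_r(𝓞 L)`, Zariski dense in `Y`. -/
theorem result :
    (∀ (G : Type) [Group G] (N : Subgroup G) (k : ℕ) (g : Fin k → G), InCyclicProduct N g →
      ∀ (r : ℕ) (f : G →* SpecialLinearGroup (Fin r) ℂ),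
      (∀ i z, IsEigenvalue (f (g i)) z → IsIntegral ℤ z) → ∀ x ∈ N,
        (∀ z, IsEigenvalue (f x) z → IsIntegral ℤ z) ∧ IsIntegral ℤ (f x).1.trace) ∧
    (∀ (G : Type) [Group G] (s : ℕ) (w : Fin s → G) (r : ℕ)
      (f : G →* SpecialLinearGroup (Fin r) ℂ),
      (∀ j z, IsEigenvalue (f (w j)) z → ∃ n : ℕ, 0 < n ∧ z ^ n = 1) → ∀ g, IsTame w g →
        ∀ z, IsEigenvalue (f g) z → ∃ n : ℕ, 0 < n ∧ z ^ n = 1) ∧
    (∀ (ι : Type) [Finite ι] (R : Set (FreeGroup ι)) (r s : ℕ) (w : Fin s → FreeGroup ι)
      (C : Fin s → SpecialLinearGroup (Fin r) ℂ),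
      (∀ j z, IsEigenvalue (C j) z → ∃ n : ℕ, 0 < n ∧ z ^ n = 1) →
      ∀ N : Subgroup (PresentedGroup R), N.Normal → ∀ (k : ℕ) (g : Fin k → FreeGroup ι),
      InCyclicProduct N (fun i => PresentedGroup.mk R (g i)) →
      ((∀ i, IsTame (fun j => PresentedGroup.mk R (w j)) (PresentedGroup.mk R (g i))) ∨
        ∀ X ∈ YW R w C, ∀ i z, IsEigenvalue (FreeGroup.lift X (g i)) z → IsIntegral ℤ z) →
      ((∃ O : OrbFamily (PresentedGroup R), (∀ j, O.IsPeripheral (PresentedGroup.mk R (w j))) ∧
        N ≤ O.K ∧ VSMod O.K N) ∨ VSMod ⊤ N) →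
      ∃ L : IntermediateField ℚ ℂ, FiniteDimensional ℚ L ∧
        IsDense R L (YW R w C) ∧ IsDenseRep L (YW R w C)) :=
  ⟨fun _ _ N _ g hN _ f hg x hx => criterion N g hN f hg x hx,
    fun _ _ _ w _ f hw _ hg => qu_of_tame w f hw hg,
    fun _ _ _ _ _ w C hC N hn _ g hN hg hO => main w C hC N hn g hN hg hO⟩

end Vale.Agent.Results.P002.BoundedGeneration
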