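import Vale.Agent.P002.R2.H543.Relative
import Vale.Agent.P002.R2.H543.Surface

/-!
# Groups with a braid chain: small representations and potential density of integral points
-/

namespace Vale.Agent.Results.P002.BraidChains

open Matrix Vale.Agent.P002R.Orb Vale.Agent.P002.H326J Vale.Agent.P002.H2
  Vale.Agent.P002.R2.H543

/-- (1) If `c_1, …, c_m` in any group satisfy the braid relations and `r ≤ m - 2`, every
homomorphism to `GL_r(K)`, `K` any field, takes the same value on all `c_i`; this value is central
in the image if the group is generated by elements each of which commutes with some `c_i`.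
(2) For such a group `⟨ι | R⟩`, with `c_i` represented by the words `u_i`, and any classes `C j`
of any elements `w j`, the set `Y = YW R w C` of points of the character variety of rank `r ≤ m - 2`
does not change if the relations `u_i x = x u_i`, `u_i = u_j` are added. If `ι` is finite, the
quotient of the group by the normal closure of the `c_i` is virtually solvable and the classes
`C j` are quasi-unipotent, then for some number field `L` the `𝓞 L`-integral points, and the
representations into `SL_r(𝓞 L)`, are Zariski dense in `Y`.
(3) This applies to the braid groups of `m + 1` strands on orientable surfaces (Bellingeri's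
presentation `BRels`; for closed surfaces `R` has one more relation) and to their quotients.
(4) Density as in (2) holds also if only the image in the quotient by the normal closure of the
`c_i` of the common kernel `O.K` of a family `O` of maps to orbifold groups of curves (see
`OrbFamily`) is virtually solvable and the `w j` are peripheral for `O`. -/
theorem result :
    (∀ (K : Type) [Field K] (G : Type) [Group G] (m r : ℕ) (c : Fin m → G),
      IsBraidChain c → r + 2 ≤ m → ∀ ρ : G →* GL (Fin r) K,
        (∀ i j, ρ (c i) = ρ (c j)) ∧
          (GeneratedByCommuting c → ∀ i g, ρ (c i) * ρ g = ρ g * ρ (c i))) ∧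
    (∀ (ι : Type) (R : Set (FreeGroup ι)) (m : ℕ) (u : Fin m → FreeGroup ι),
      IsBraidChain (fun i => PresentedGroup.mk R (u i)) →
      GeneratedByCommuting (fun i => PresentedGroup.mk R (u i)) →
        ∀ (r s : ℕ) (w : Fin s → FreeGroup ι) (C : Fin s → SpecialLinearGroup (Fin r) ℂ),
          r + 2 ≤ m →
            YW R w C = YW (R ∪ CentralRels u) w C ∧
            (Finite ι → VirtSolvableQuotient (fun i => PresentedGroup.mk R (u i)) →
              (∀ j z, IsEigenvalue (C j) z → ∃ n : ℕ, 0 < n ∧ z ^ n = 1) →
                ∃ L : IntermediateField ℚ ℂ, FiniteDimensional ℚ L ∧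
                  IsDense R L (YW R w C) ∧ IsDenseRep L (YW R w C))) ∧
    (∀ (m g p : ℕ) (R : Set (FreeGroup (BGens m g p))), BRels m g p ⊆ R →
      ∀ (r s : ℕ) (w : Fin s → FreeGroup (BGens m g p))
        (C : Fin s → SpecialLinearGroup (Fin r) ℂ), r + 2 ≤ m →
          (∀ j z, IsEigenvalue (C j) z → ∃ n : ℕ, 0 < n ∧ z ^ n = 1) →
            ∃ L : IntermediateField ℚ ℂ, FiniteDimensional ℚ L ∧
              IsDense R L (YW R w C) ∧ IsDenseRep L (YW R w C)) ∧
    ∀ (ι : Type) [Finite ι] (R : Set (FreeGroup ι)) (O : OrbFamily (PresentedGroup R)) (m : ℕ)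
      (u : Fin m → FreeGroup ι), IsBraidChain (fun i => PresentedGroup.mk R (u i)) →
      GeneratedByCommuting (fun i => PresentedGroup.mk R (u i)) →
      VirtSolvableImage (fun i => PresentedGroup.mk R (u i)) O.K →
        ∀ (r s : ℕ) (w : Fin s → FreeGroup ι) (C : Fin s → SpecialLinearGroup (Fin r) ℂ),
          r + 2 ≤ m → (∀ j z, IsEigenvalue (C j) z → ∃ n : ℕ, 0 < n ∧ z ^ n = 1) →
          (∀ j, O.IsPeripheral (PresentedGroup.mk R (w j))) →
            ∃ L : IntermediateField ℚ ℂ, FiniteDimensional ℚ L ∧
              IsDense R L (YW R w C) ∧ IsDenseRep L (YW R w C) := by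
  refine ⟨fun K _ G _ m r c hc hr ρ =>
    ⟨const_of_chain hc hr ρ, fun hC => central_of_chain hc hC hr ρ⟩,
    fun ι R m u hB hC r s w C hr => ⟨yw_central R u hB hC hr w C, fun hι hD hQ =>
      chain_dense R (MulEquiv.refl _) hB hC hD hr w C hQ⟩,
    fun m g p R hR r s w C hr hQ => ?_,
    fun ι _ R O m u hB hC hD r s w C hr hQ hw => rel_dense R O hB hC hD hr w C hQ hw⟩
  exact chain_dense R (MulEquiv.refl _) (surf_chain hR) (surf_gen (by omega) hR)
    (surf_quot (by omega) hR) hr w C hQ

end Vale.Agent.Results.P002.BraidChains
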