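import Vale.Agent.P002.R2.H53.Typed

/-!
# Potential density of integral points for groups with commuting conjugate subgroups
-/

namespace Vale.Agent.Results.P002.CommutingConjugates

open Matrix NumberField Vale.Agent.P002R.Orb Vale.Agent.P002.H326J Vale.Agent.P002.H2
  Vale.Agent.P002.H252 Vale.Agent.P002.R2.H53

/-- (1) Over an algebraically closed field, pairwise commuting nonsolvable subgroups `B i` of
`GL_r`, `i` in a finite set `I`, exist only for `r ≥ 2 |I|`.

In (2)-(5) `Γ = ⟨ι | R⟩` is a finitely generated group (e.g. the fundamental group of a smooth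
quasi-projective variety), `r` is any rank, and the `C j` are any quasi-unipotent classes,
prescribed at the elements `w j` (meridians). In each case some number field `L` makes the
`𝓞 L`-integral points, and the representations into `SL_r(𝓞 L)`, Zariski dense in the set `U` or
`Y = YW` considered. For subgroups `H i` of `Γ`, `i` in a finite set, `RankBound H d i` says: for
some `c` and `n` with `d < c * n` all complex representations of `H i` of dimension less than `c`
have virtually solvable image and at least `n` of the `H j` are conjugate to `H i`; by (6) this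
holds if `d < 2 * n`, and if `H i` is virtually solvable.

(2) `U` is open in `Y` and all irreducible subrepresentations `W` of the very general points of `U`
are small (`IsSmall`, with `RankBound` for the dimension of `W`), or typed in the sense of
`IsTyped`.
(3) `U = Y`: `O` is a finite `Γ`-equivariant family of maps of subgroups of finite index of `Γ` to
orbifold groups of curves for which the `w j` are peripheral, `O.K` is its common kernel; some
subgroup `A` of finite index of `O.K` has a term of its derived series in the subgroup generated by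
pairwise commuting subgroups `H i` of `Γ` which satisfy `RankBound H r i`.
(4) `U = Y`: some subgroup `A` of finite index of `O.K` is a product of groups `P i`, `i` in a
finite set, and its factors satisfy `RankBound` for `r`.
(5) The case of (4) without maps to curves: `A` is a subgroup of finite index of `Γ`, and the `w j`
are arbitrary. -/
theorem result :
    (∀ (K : Type) [Field K] [IsAlgClosed K] (r : ℕ) (I : Type) [Finite I]
      (B : I → Subgroup (GL (Fin r) K)),
      (∀ i j, i ≠ j → ∀ x ∈ B i, ∀ y ∈ B j, x * y = y * x) →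
      (∀ i, ¬ Group.IsSolvable (B i)) → 2 * Nat.card I ≤ r) ∧
    (∀ (ι : Type) [Finite ι] (R : Set (FreeGroup ι)) (r s : ℕ) (w : Fin s → FreeGroup ι)
      (C : Fin s → SpecialLinearGroup (Fin r) ℂ),
      (∀ j z, IsEigenvalue (C j) z → ∃ m : ℕ, 0 < m ∧ z ^ m = 1) →
      (∀ (P : Set (MvPolynomial (ι × Fin r × Fin r) ℂ))
        (B : ℕ → Set (MvPolynomial (ι × Fin r × Fin r) ℂ)),
        (∀ n, IsDenseIn (OpenIn (OpenIn (YW R w C) P) (B n)) (OpenIn (YW R w C) P)) →
        (∀ X ∈ OpenIn (YW R w C) P, (∀ n, ∃ F ∈ B n, value F X ≠ 0) → IsTypedOrSmall R w X) →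
        ∃ L : IntermediateField ℚ ℂ, FiniteDimensional ℚ L ∧
          IsDense R L (OpenIn (YW R w C) P) ∧ IsDenseRep L (OpenIn (YW R w C) P)) ∧
      (∀ O : OrbFamily (PresentedGroup R), (∀ j, O.IsPeripheral (PresentedGroup.mk R (w j))) →
        ∀ A : Subgroup (PresentedGroup R), A ≤ O.K → A.relIndex O.K ≠ 0 →
        ∀ (I : Type) [Finite I] (H : I → Subgroup (PresentedGroup R)),
        (∀ i j, i ≠ j → ∀ x ∈ H i, ∀ y ∈ H j, x * y = y * x) →
        (∀ i, RankBound H r i) → ∀ k : ℕ, (derivedSeries A k).map A.subtype ≤ ⨆ i, H i →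
        ∃ L : IntermediateField ℚ ℂ, FiniteDimensional ℚ L ∧
          IsDense R L (YW R w C) ∧ IsDenseRep L (YW R w C)) ∧
      (∀ O : OrbFamily (PresentedGroup R), (∀ j, O.IsPeripheral (PresentedGroup.mk R (w j))) →
        ∀ A : Subgroup (PresentedGroup R), A ≤ O.K → A.relIndex O.K ≠ 0 →
        ∀ (I : Type) [Finite I] (P : I → Type) [∀ i, Group (P i)] (e : A ≃* (∀ i, P i)),
        (∀ i, RankBound (Factor e) r i) →
        ∃ L : IntermediateField ℚ ℂ, FiniteDimensional ℚ L ∧
          IsDense R L (YW R w C) ∧ IsDenseRep L (YW R w C)) ∧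
      (∀ A : Subgroup (PresentedGroup R), A.FiniteIndex →
        ∀ (I : Type) [Finite I] (P : I → Type) [∀ i, Group (P i)] (e : A ≃* (∀ i, P i)),
        (∀ i, RankBound (Factor e) r i) →
        ∃ L : IntermediateField ℚ ℂ, FiniteDimensional ℚ L ∧
          IsDense R L (YW R w C) ∧ IsDenseRep L (YW R w C))) ∧
    ∀ (G : Type) [Group G] (I : Type) [Finite I] (H : I → Subgroup G) (d : ℕ) (i : I),
      (∀ n : ℕ, d < 2 * n → n ≤ Nat.card {j // AreConj (H i) (H j)} → RankBound H d i) ∧
      ((∃ B : Subgroup (H i), Group.IsSolvable B ∧ B.FiniteIndex) → RankBound H d i) := by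
  refine ⟨fun K _ _ r I _ B => gl_le K r I B, fun ι _ R r s w C hC => ⟨?_, ?_, ?_, ?_⟩,
    fun G _ I _ H d i => ⟨fun n hr h => rankBound_of_two H d n i hr h, ?_⟩⟩
  · exact fun P B hB hT => main_mixed w C hC P B hB hT
  · intro O hw A hAK hA I _ H hc hH k hk
    exact rel_two ι R O I H hc A hAK hA k hk r hH s w C hw hC
  · intro O hw A hAK hA I _ P _ e hH
    exact rel_three ι R O I P A hAK hA e r hH s w C hw hC
  · intro A hA I _ P _ e hH
    exact main_four ι R I P A hA e r hH s w C hC
  · rintro ⟨B, hB, hB'⟩
    exact rankBound_of_solvable H d i B hB hB'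

end Vale.Agent.Results.P002.CommutingConjugates
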