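import Vale.Agent.P002.R2.H426.SixM

/-!
# Components dominated by a torus: one number field, and a local-global principle
-/

namespace Vale.Agent.Results.P002.TorusDominated

open Matrix Vale.Agent.P002R.Orb Vale.Agent.P002.H326J Vale.Agent.P002.H2 Vale.Agent.P002.R2

/-- `Γ = ⟨ι | R⟩` is any finitely generated group (e.g. the fundamental group of any smooth
quasi-projective variety), `r` any rank and the `C j` are any conjugacy classes, prescribed at the
elements `w j` (meridians); `Y = YW`. A component `Z` of `Y` is dominated by a torus in `M_r`
(`IsTorusDominatedM`) if for some representations `X t`, `t ∈ (ℂˣ)ⁿ`, the traces of all words are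
complex Laurent polynomials in `t` (no condition on the matrices), `X t` is in `Z` for all `t`
outside of a proper closed subset of the torus, and the `X t` are Zariski dense in `Z` as a set of
points of `M_r`: there is a dominant morphism from a torus to the closure of `Z` in `M_r`.

(1) For every irreducible component `Z` of `Y` which is dominated by a torus in `M_r` the following
are equivalent: for ONE number field `L` the `𝓞 L`-integral points are Zariski dense in `Z`; the
points of `Z` which are integral over some number field are Zariski dense in `Z`; the closure of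
`Z` in `M_r` contains one point with integral traces; for every maximal ideal `P` of the ring of
all algebraic integers, the closure of `Z` in `M_r` contains a point with traces integral at `P`.
(2) If all components of `Y` are dominated by tori in `M_r`, the same holds for `Y`: one number
field suffices for `Y` if and only if each component has, for every `P`, a point integral at `P` in
its closure.
(3) If the entries of the matrices `X t` are Laurent polynomials, their traces are Laurent
polynomials, and the conditions in (1) are also equivalent to: for one number field `L` the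
representations in `Z` over `𝓞 L` are Zariski dense in `Z`, even as a set of points of the
representation variety. -/
theorem result (ι : Type) [Finite ι] (R : Set (FreeGroup ι)) (r s : ℕ) (w : Fin s → FreeGroup ι)
    (C : Fin s → SpecialLinearGroup (Fin r) ℂ) :
    (∀ Z, IsComponentM R Z (YW R w C) → IsTorusDominatedM R Z → List.TFAE [
      ∃ L : IntermediateField ℚ ℂ, FiniteDimensional ℚ L ∧ IsDense R L Z,
      IsDenseAll R Z,
      ∃ X, InClosureM R Z X ∧ ∀ x, IsIntegral ℤ (FreeGroup.lift X x).1.trace,
      ∀ P : Ideal (integralClosure ℤ ℂ), P.IsMaximal →
        ∃ X, InClosureM R Z X ∧ ∀ x, IsIntegralAt P (FreeGroup.lift X x).1.trace]) ∧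
    ((∀ Z, IsComponentM R Z (YW R w C) → IsTorusDominatedM R Z) → List.TFAE [
      ∃ L : IntermediateField ℚ ℂ, FiniteDimensional ℚ L ∧ IsDense R L (YW R w C),
      IsDenseAll R (YW R w C),
      ∀ Z, IsComponentM R Z (YW R w C) →
        ∃ X, InClosureM R Z X ∧ ∀ x, IsIntegral ℤ (FreeGroup.lift X x).1.trace,
      ∀ Z, IsComponentM R Z (YW R w C) → ∀ P : Ideal (integralClosure ℤ ℂ), P.IsMaximal →
        ∃ X, InClosureM R Z X ∧ ∀ x, IsIntegralAt P (FreeGroup.lift X x).1.trace]) ∧
    (∀ Z, IsComponentM R Z (YW R w C) → IsTorusDominated R Z → IsTorusDominatedM R Z ∧
      ((∃ L : IntermediateField ℚ ℂ, FiniteDimensional ℚ L ∧ IsDense R L Z) ↔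
        ∃ L : IntermediateField ℚ ℂ, FiniteDimensional ℚ L ∧ IsDenseRep L Z)) :=
  ⟨fun _ hZ hT => H426.tfae_component_M H426.intFam hZ hT,
    fun hT => H426.tfae_YW_M H426.intFam hT,
    fun _ hZ hT => ⟨H426.isTorusDominatedM hT, (H426.tfae_component hZ hT).out 0 1⟩⟩

end Vale.Agent.Results.P002.TorusDominated
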